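import Mathlib
import Vale.Agent.H28.Rok.Main

/-!
# P102 (Rokhlin's multiple-mixing problem): the diagonal criterion for mixing of order three

Let `T` be a measure preserving map of a probability space `(Ω, μ)` which is mixing:
`μ (A ∩ T⁻ⁿ B) → μ A * μ B` as `n → ∞` for all measurable `A`, `B`.  If for every single measurable
set `A`
`μ (A ∩ T⁻ⁿ A ∩ T⁻⁽ⁿ⁺ᵐ⁾ A) → μ(A)³` as `n → ∞` and `m → ∞`,
then `T` is mixing of order three:
`μ (A ∩ T⁻ⁿ B ∩ T⁻⁽ⁿ⁺ᵐ⁾ C) → μ A * μ B * μ C` as `n → ∞` and `m → ∞`, for all measurable `A`, `B`, `C`.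

The statement uses Mathlib notions only: `T^[n]` is the `n`-th iterate of `T`, `T^[n] ⁻¹' A` the
preimage of `A` under it, `μ.real` the measure as a real number, and the limits over
`p = (n, m) : ℕ × ℕ` are along `Filter.atTop` of the product order, i.e. both `n` and `m` tend to
infinity.
-/

open MeasureTheory Filter Topology

namespace Vale.Agent.Results.P102.A_DiagonalCriterion

theorem result {Ω : Type*} [MeasurableSpace Ω] (μ : Measure Ω) [IsProbabilityMeasure μ]
    (T : Ω → Ω) (hT : MeasurePreserving T μ μ)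
    (hmix : ∀ A B : Set Ω, MeasurableSet A → MeasurableSet B →
      Tendsto (fun n : ℕ => μ.real (A ∩ T^[n] ⁻¹' B)) atTop (𝓝 (μ.real A * μ.real B)))
    (hdiag : ∀ A : Set Ω, MeasurableSet A →
      Tendsto (fun p : ℕ × ℕ => μ.real (A ∩ T^[p.1] ⁻¹' A ∩ T^[p.1 + p.2] ⁻¹' A)) atTop
        (𝓝 (μ.real A ^ 3))) :
    ∀ A B C : Set Ω, MeasurableSet A → MeasurableSet B → MeasurableSet C →
      Tendsto (fun p : ℕ × ℕ => μ.real (A ∩ T^[p.1] ⁻¹' B ∩ T^[p.1 + p.2] ⁻¹' C)) atTop
        (𝓝 (μ.real A * μ.real B * μ.real C)) :=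
  Vale.Agent.H28.Rok.final_statement μ T hT hmix hdiag

end Vale.Agent.Results.P102.A_DiagonalCriterion
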