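import Mathlib
import Vale.Agent.H28.Rok.OneSided

/-!
# P102 (Rokhlin's multiple-mixing problem): the one-sided diagonal criterion for mixing of order three

Let `T` be a measure preserving map of a probability space `(Ω, μ)` which is mixing:
`μ (A ∩ T⁻ⁿ B) → μ A * μ B` as `n → ∞` for all measurable `A`, `B`.

* If for every single measurable set `A` and every `ε > 0`
  `μ (A ∩ T⁻ⁿ A ∩ T⁻⁽ⁿ⁺ᵐ⁾ A) ≤ μ(A)³ + ε` for all large `n` and `m`,
  then `T` is mixing of order three: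
  `μ (A ∩ T⁻ⁿ B ∩ T⁻⁽ⁿ⁺ᵐ⁾ C) → μ A * μ B * μ C` as `n → ∞` and `m → ∞`, for all measurable `A`, `B`, `C`.
* The same conclusion holds if instead `μ(A)³ - ε ≤ μ (A ∩ T⁻ⁿ A ∩ T⁻⁽ⁿ⁺ᵐ⁾ A)` for all large `n` and `m`.

The statement uses Mathlib notions only: `T^[n]` is the `n`-th iterate of `T`, `T^[n] ⁻¹' A` the
preimage of `A` under it, `μ.real` the measure as a real number, and `∀ᶠ p in atTop` and the limits
over `p = (n, m) : ℕ × ℕ` are along `Filter.atTop` of the product order, i.e. for all `n` and `m`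
that are both large enough, resp. as both `n` and `m` tend to infinity.
-/

open MeasureTheory Filter Topology

namespace Vale.Agent.Results.P102.B_OneSidedDiagonal

theorem result {Ω : Type*} [MeasurableSpace Ω] (μ : Measure Ω) [IsProbabilityMeasure μ]
    (T : Ω → Ω) (hT : MeasurePreserving T μ μ)
    (hmix : ∀ A B : Set Ω, MeasurableSet A → MeasurableSet B →
      Tendsto (fun n : ℕ => μ.real (A ∩ T^[n] ⁻¹' B)) atTop (𝓝 (μ.real A * μ.real B))) :
    ((∀ A : Set Ω, MeasurableSet A → ∀ ε : ℝ, 0 < ε → ∀ᶠ p : ℕ × ℕ in atTop,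
        μ.real (A ∩ T^[p.1] ⁻¹' A ∩ T^[p.1 + p.2] ⁻¹' A) ≤ μ.real A ^ 3 + ε) →
      ∀ A B C : Set Ω, MeasurableSet A → MeasurableSet B → MeasurableSet C →
        Tendsto (fun p : ℕ × ℕ => μ.real (A ∩ T^[p.1] ⁻¹' B ∩ T^[p.1 + p.2] ⁻¹' C)) atTop
          (𝓝 (μ.real A * μ.real B * μ.real C))) ∧
    ((∀ A : Set Ω, MeasurableSet A → ∀ ε : ℝ, 0 < ε → ∀ᶠ p : ℕ × ℕ in atTop,
        μ.real A ^ 3 - ε ≤ μ.real (A ∩ T^[p.1] ⁻¹' A ∩ T^[p.1 + p.2] ⁻¹' A)) →
      ∀ A B C : Set Ω, MeasurableSet A → MeasurableSet B → MeasurableSet C →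
        Tendsto (fun p : ℕ × ℕ => μ.real (A ∩ T^[p.1] ⁻¹' B ∩ T^[p.1 + p.2] ⁻¹' C)) atTop
          (𝓝 (μ.real A * μ.real B * μ.real C))) :=
  Vale.Agent.H28.Rok.one_sided_statement μ T hT hmix

end Vale.Agent.Results.P102.B_OneSidedDiagonal
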