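import Mathlib
import Vale.Agent.H28.Rok.OneSided

/-!
# P102 (Rokhlin's multiple-mixing problem): one-set characterisations of mixing of order three

Let `T` be a measure preserving map of a probability space `(Ω, μ)` which is mixing:
`μ (A ∩ T⁻ⁿ B) → μ A * μ B` as `n → ∞` for all measurable `A`, `B`.  Then the following are
equivalent to mixing of order three, i.e. to
`μ (A ∩ T⁻ⁿ B ∩ T⁻⁽ⁿ⁺ᵐ⁾ C) → μ A * μ B * μ C` as `n → ∞` and `m → ∞` for all measurable `A`, `B`, `C`: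

* for every single measurable set `A` and every `ε > 0`,
  `μ (A ∩ T⁻ⁿ A ∩ T⁻⁽ⁿ⁺ᵐ⁾ A) ≤ μ(A)³ + ε` for all large `n` and `m`;
* for every single measurable set `A` and every `ε > 0`,
  `μ(A)³ - ε ≤ μ (A ∩ T⁻ⁿ A ∩ T⁻⁽ⁿ⁺ᵐ⁾ A)` for all large `n` and `m`;
* for every single measurable set `A`, `μ (A ∩ T⁻ⁿ A ∩ T⁻⁽ⁿ⁺ᵐ⁾ A) → μ(A)³` as `n → ∞` and `m → ∞`.

The implications from the one-set conditions to mixing of order three are the statements of the
hand-ins `B_OneSidedDiagonal` and `A_DiagonalCriterion`; the converse implications are immediate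
(take the three sets equal).  Mathlib notions only; limits and eventual statements over
`p = (n, m) : ℕ × ℕ` are along `Filter.atTop` of the product order.
-/

open MeasureTheory Filter Topology

namespace Vale.Agent.Results.P102.C_DiagonalCharacterisation

theorem result {Ω : Type*} [MeasurableSpace Ω] (μ : Measure Ω) [IsProbabilityMeasure μ]
    (T : Ω → Ω) (hT : MeasurePreserving T μ μ)
    (hmix : ∀ A B : Set Ω, MeasurableSet A → MeasurableSet B →
      Tendsto (fun n : ℕ => μ.real (A ∩ T^[n] ⁻¹' B)) atTop (𝓝 (μ.real A * μ.real B))) :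
    ((∀ A B C : Set Ω, MeasurableSet A → MeasurableSet B → MeasurableSet C →
        Tendsto (fun p : ℕ × ℕ => μ.real (A ∩ T^[p.1] ⁻¹' B ∩ T^[p.1 + p.2] ⁻¹' C)) atTop
          (𝓝 (μ.real A * μ.real B * μ.real C))) ↔
      (∀ A : Set Ω, MeasurableSet A → ∀ ε : ℝ, 0 < ε → ∀ᶠ p : ℕ × ℕ in atTop,
        μ.real (A ∩ T^[p.1] ⁻¹' A ∩ T^[p.1 + p.2] ⁻¹' A) ≤ μ.real A ^ 3 + ε)) ∧
    ((∀ A B C : Set Ω, MeasurableSet A → MeasurableSet B → MeasurableSet C →
        Tendsto (fun p : ℕ × ℕ => μ.real (A ∩ T^[p.1] ⁻¹' B ∩ T^[p.1 + p.2] ⁻¹' C)) atTop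
          (𝓝 (μ.real A * μ.real B * μ.real C))) ↔
      (∀ A : Set Ω, MeasurableSet A → ∀ ε : ℝ, 0 < ε → ∀ᶠ p : ℕ × ℕ in atTop,
        μ.real A ^ 3 - ε ≤ μ.real (A ∩ T^[p.1] ⁻¹' A ∩ T^[p.1 + p.2] ⁻¹' A))) ∧
    ((∀ A B C : Set Ω, MeasurableSet A → MeasurableSet B → MeasurableSet C →
        Tendsto (fun p : ℕ × ℕ => μ.real (A ∩ T^[p.1] ⁻¹' B ∩ T^[p.1 + p.2] ⁻¹' C)) atTop
          (𝓝 (μ.real A * μ.real B * μ.real C))) ↔
      (∀ A : Set Ω, MeasurableSet A →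
        Tendsto (fun p : ℕ × ℕ => μ.real (A ∩ T^[p.1] ⁻¹' A ∩ T^[p.1 + p.2] ⁻¹' A)) atTop
          (𝓝 (μ.real A ^ 3)))) := by
  have hB := Vale.Agent.H28.Rok.one_sided_statement μ T hT hmix
  have conv : (∀ A B C : Set Ω, MeasurableSet A → MeasurableSet B → MeasurableSet C →
      Tendsto (fun p : ℕ × ℕ => μ.real (A ∩ T^[p.1] ⁻¹' B ∩ T^[p.1 + p.2] ⁻¹' C)) atTop
        (𝓝 (μ.real A * μ.real B * μ.real C))) →
      ∀ A : Set Ω, MeasurableSet A →
        Tendsto (fun p : ℕ × ℕ => μ.real (A ∩ T^[p.1] ⁻¹' A ∩ T^[p.1 + p.2] ⁻¹' A)) atTop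
          (𝓝 (μ.real A ^ 3)) := by
    intro h A hA
    have h1 := h A A A hA hA hA
    have e : μ.real A * μ.real A * μ.real A = μ.real A ^ 3 := by ring
    rw [e] at h1
    exact h1
  refine ⟨⟨fun h A hA ε hε => (conv h A hA).eventually (eventually_le_nhds (by linarith)), hB.1⟩,
    ⟨fun h A hA ε hε => (conv h A hA).eventually (eventually_ge_nhds (by linarith)), hB.2⟩,
    ⟨conv, fun h => Vale.Agent.H28.Rok.final_statement μ T hT hmix h⟩⟩

end Vale.Agent.Results.P102.C_DiagonalCharacterisation
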